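import Mathlib

/-!
Euler transformation of the alternating series defining the Catalan constant, with an explicit
remainder.
-/

namespace Vale.Agent.Lib.P030

open Finset Filter Topology

/-- The `n`-th forward difference of the sequence `1 / (2 k + 1) ^ 2`, in closed form. -/
noncomputable def cc (n k : ℕ) : ℝ :=
  ((n.factorial : ℝ) * 2 ^ n / ∏ j ∈ range (n + 1), (2 * (k : ℝ) + 2 * (j : ℝ) + 1)) *
    ∑ j ∈ range (n + 1), 1 / (2 * (k : ℝ) + 2 * (j : ℝ) + 1)

theorem cc_zero (k : ℕ) : cc 0 k = 1 / (2 * (k : ℝ) + 1) ^ 2 := by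
  have h : (0 : ℝ) < 2 * (k : ℝ) + 1 := by positivity
  simp only [cc, Nat.factorial_zero, Nat.cast_one, pow_zero, mul_one, zero_add, range_one,
    prod_singleton, sum_singleton, Nat.cast_zero, mul_zero, add_zero]
  field_simp

theorem fac_pos (k j : ℕ) : (0 : ℝ) < 2 * (k : ℝ) + 2 * (j : ℝ) + 1 := by positivity

theorem cc_pos (n k : ℕ) : 0 < cc n k := by
  unfold cc
  apply mul_pos
  · apply div_pos
    · positivity
    · exact prod_pos fun j _ => fac_pos k j
  · apply sum_pos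
    · intro j _
      exact one_div_pos.mpr (fac_pos k j)
    · exact ⟨0, by simp⟩

theorem cc_succ (n k : ℕ) : cc (n + 1) k = cc n k - cc n (k + 1) := by
  unfold cc
  -- notation for the full product and sum over `range (n + 2)`
  have hP : ∏ j ∈ range (n + 1 + 1), (2 * (k : ℝ) + 2 * (j : ℝ) + 1) =
      (∏ j ∈ range (n + 1), (2 * (k : ℝ) + 2 * (j : ℝ) + 1)) *
        (2 * (k : ℝ) + 2 * ((n + 1 : ℕ) : ℝ) + 1) := prod_range_succ _ _
  have hP' : ∏ j ∈ range (n + 1 + 1), (2 * (k : ℝ) + 2 * (j : ℝ) + 1) =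
      (∏ j ∈ range (n + 1), (2 * ((k + 1 : ℕ) : ℝ) + 2 * (j : ℝ) + 1)) *
        (2 * (k : ℝ) + 1) := by
    rw [prod_range_succ']
    congr 1
    · apply prod_congr rfl
      intro j _
      push_cast
      ring
    · simp
  have hS : ∑ j ∈ range (n + 1 + 1), 1 / (2 * (k : ℝ) + 2 * (j : ℝ) + 1) =
      (∑ j ∈ range (n + 1), 1 / (2 * (k : ℝ) + 2 * (j : ℝ) + 1)) +
        1 / (2 * (k : ℝ) + 2 * ((n + 1 : ℕ) : ℝ) + 1) := sum_range_succ _ _
  have hS' : ∑ j ∈ range (n + 1 + 1), 1 / (2 * (k : ℝ) + 2 * (j : ℝ) + 1) =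
      (∑ j ∈ range (n + 1), 1 / (2 * ((k + 1 : ℕ) : ℝ) + 2 * (j : ℝ) + 1)) +
        1 / (2 * (k : ℝ) + 1) := by
    rw [sum_range_succ']
    congr 1
    · apply sum_congr rfl
      intro j _
      push_cast
      ring
    · simp
  set A := ∏ j ∈ range (n + 1), (2 * (k : ℝ) + 2 * (j : ℝ) + 1) with hA
  set B := ∏ j ∈ range (n + 1), (2 * ((k + 1 : ℕ) : ℝ) + 2 * (j : ℝ) + 1) with hB
  set SA := ∑ j ∈ range (n + 1), 1 / (2 * (k : ℝ) + 2 * (j : ℝ) + 1) with hSA
  set SB := ∑ j ∈ range (n + 1), 1 / (2 * ((k + 1 : ℕ) : ℝ) + 2 * (j : ℝ) + 1) with hSB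
  have hApos : 0 < A := prod_pos fun j _ => fac_pos k j
  have hBpos : 0 < B := prod_pos fun j _ => fac_pos (k + 1) j
  set u : ℝ := 2 * (k : ℝ) + 1 with hu
  set v : ℝ := 2 * (k : ℝ) + 2 * ((n + 1 : ℕ) : ℝ) + 1 with hv
  have hupos : 0 < u := by positivity
  have hvpos : 0 < v := by positivity
  have hAB : A * v = B * u := by rw [← hP, hP']
  have hSAB : SA + 1 / v = SB + 1 / u := by rw [← hS, hS']
  rw [hP, hS]
  have hfac : ((n + 1).factorial : ℝ) = ((n : ℝ) + 1) * (n.factorial : ℝ) := by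
    rw [Nat.factorial_succ]; push_cast; ring
  have hvu : v - u = 2 * ((n : ℝ) + 1) := by
    simp only [hu, hv]; push_cast; ring
  have hB' : B = A * v / u := by
    field_simp
    linarith [hAB]
  have hSB' : SB = SA + 1 / v - 1 / u := by linarith [hSAB]
  rw [hB', hSB', hfac]
  have hn1 : (n : ℝ) + 1 = (v - u) / 2 := by linarith [hvu]
  rw [hn1]
  field_simp
  ring

theorem cc_antitone (n : ℕ) : Antitone (cc n) := by
  apply antitone_nat_of_succ_le
  intro k
  have := cc_pos (n + 1) k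
  rw [cc_succ] at this
  linarith

theorem summable_base : Summable (fun k : ℕ => (-1 : ℝ) ^ k * cc 0 k) := by
  apply Summable.of_norm_bounded (g := fun k : ℕ => 1 / ((k : ℝ) + 1) ^ 2)
  · have h := (summable_nat_add_iff 1).mpr
      (Real.summable_one_div_nat_pow.mpr (by norm_num : 1 < 2))
    refine h.congr fun k => ?_
    push_cast
    rfl
  · intro k
    have hpos : (0 : ℝ) < 1 / (2 * (k : ℝ) + 1) ^ 2 := by positivity
    rw [cc_zero, norm_mul, norm_pow, norm_neg, norm_one, one_pow, one_mul, Real.norm_eq_abs,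
      abs_of_pos hpos]
    apply one_div_le_one_div_of_le (by positivity)
    have hk : (0 : ℝ) ≤ (k : ℝ) := Nat.cast_nonneg k
    have : (k : ℝ) + 1 ≤ 2 * (k : ℝ) + 1 := by linarith
    exact pow_le_pow_left₀ (by positivity) this 2

theorem cc_split (n : ℕ) : (fun k : ℕ => (-1 : ℝ) ^ k * cc (n + 1) k) =
    fun k => (-1 : ℝ) ^ k * cc n k + (-1 : ℝ) ^ (k + 1) * cc n (k + 1) := by
  funext k
  rw [cc_succ, pow_succ]
  ring

theorem cc_summable (n : ℕ) : Summable (fun k : ℕ => (-1 : ℝ) ^ k * cc n k) := by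
  induction n with
  | zero => exact summable_base
  | succ n ih =>
    have h1 : Summable (fun k : ℕ => (-1 : ℝ) ^ (k + 1) * cc n (k + 1)) :=
      (summable_nat_add_iff 1).mpr ih
    rw [cc_split]
    exact ih.add h1

/-- The alternating sum of the `n`-th difference sequence. -/
noncomputable def AA (n : ℕ) : ℝ := ∑' k : ℕ, (-1 : ℝ) ^ k * cc n k

theorem AA_succ (n : ℕ) : AA (n + 1) = 2 * AA n - cc n 0 := by
  unfold AA
  have h1 : Summable (fun k : ℕ => (-1 : ℝ) ^ (k + 1) * cc n (k + 1)) :=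
    (summable_nat_add_iff 1).mpr (cc_summable n)
  rw [cc_split, (cc_summable n).tsum_add h1]
  have h2 := (cc_summable n).tsum_eq_zero_add
  simp only [pow_zero, one_mul] at h2
  linarith

theorem AA_nonneg (n : ℕ) : 0 ≤ AA n := by
  have hl : Tendsto (fun m => ∑ i ∈ range m, (-1 : ℝ) ^ i * cc n i) atTop (𝓝 (AA n)) :=
    (cc_summable n).hasSum.tendsto_sum_nat
  have h0 := (cc_antitone n).alternating_series_le_tendsto hl 0
  simpa using h0

theorem AA_le (n : ℕ) : AA n ≤ cc n 0 := by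
  have hl : Tendsto (fun m => ∑ i ∈ range m, (-1 : ℝ) ^ i * cc n i) atTop (𝓝 (AA n)) :=
    (cc_summable n).hasSum.tendsto_sum_nat
  have h1 := (cc_antitone n).tendsto_le_alternating_series hl 0
  simpa using h1

theorem AA_expansion (N : ℕ) :
    AA 0 = ∑ n ∈ range N, cc n 0 / 2 ^ (n + 1) + AA N / 2 ^ N := by
  induction N with
  | zero => simp
  | succ N ih =>
    rw [sum_range_succ, ih, AA_succ]
    have h2 : (2 : ℝ) ^ (N + 1) = 2 * 2 ^ N := by ring
    rw [h2]
    have : (2 : ℝ) ^ N ≠ 0 := by positivity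
    field_simp
    ring

theorem AA_zero_eq : AA 0 = ∑' j : ℕ, (-1 : ℝ) ^ j / (2 * (j : ℝ) + 1) ^ 2 := by
  unfold AA
  congr 1
  funext j
  rw [cc_zero]
  ring

/-- The Catalan constant lies between the `N`-th Euler partial sum and that sum plus
`cc N 0 / 2 ^ N`. -/
theorem catalan_bounds (N : ℕ) :
    ∑ n ∈ range N, cc n 0 / 2 ^ (n + 1) ≤ ∑' j : ℕ, (-1 : ℝ) ^ j / (2 * (j : ℝ) + 1) ^ 2 ∧
    ∑' j : ℕ, (-1 : ℝ) ^ j / (2 * (j : ℝ) + 1) ^ 2 ≤
      ∑ n ∈ range N, cc n 0 / 2 ^ (n + 1) + cc N 0 / 2 ^ N := by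
  rw [← AA_zero_eq, AA_expansion N]
  have h2 : (0 : ℝ) < 2 ^ N := by positivity
  constructor
  · have := div_nonneg (AA_nonneg N) h2.le
    linarith
  · have := div_le_div_of_nonneg_right (AA_le N) h2.le
    linarith

end Vale.Agent.Lib.P030
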