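import Mathlib
import Vale.Agent.Lib.P030.Numeric

namespace Vale.Agent.Lib.P030

/-- A rational strictly between two Farey neighbours has denominator at least the sum of their
denominators. -/
theorem farey_between (p q p' q' a b : ℤ) (hq : 0 < q) (hq' : 0 < q')
    (hdet : p' * q = p * q' + 1) (h1 : p * b < a * q) (h2 : a * q' < p' * b) :
    q + q' ≤ b := by
  have h1' : p * b + 1 ≤ a * q := h1
  have h2' : a * q' + 1 ≤ p' * b := h2
  have e1 := mul_le_mul_of_nonneg_right h1' hq'.le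
  have e2 := mul_le_mul_of_nonneg_right h2' hq.le
  have e3 : p' * q * b = (p * q' + 1) * b := by rw [hdet]
  nlinarith [e1, e2, e3]

theorem catalan_lo : (cp : ℝ) / (cq : ℝ) < ∑' j : ℕ, (-1 : ℝ) ^ j / (2 * (j : ℝ) + 1) ^ 2 := by
  have h := (catalan_enclosure 7000).1
  refine lt_of_lt_of_le ?_ h
  have hQ := st_Q_pos 7000
  have hq : (0 : ℝ) < (cq : ℝ) := by exact_mod_cast num_cq_pos
  rw [div_lt_div_iff₀ hq (by positivity)]
  exact_mod_cast num_lo

theorem catalan_hi : ∑' j : ℕ, (-1 : ℝ) ^ j / (2 * (j : ℝ) + 1) ^ 2 < (cp' : ℝ) / (cq' : ℝ) := by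
  have h := (catalan_enclosure 7000).2
  refine lt_of_le_of_lt h ?_
  have hQ := st_Q_pos 7000
  have hq : (0 : ℝ) < (cq' : ℝ) := by exact_mod_cast num_cq'_pos
  rw [div_lt_div_iff₀ (by positivity) hq]
  exact_mod_cast num_hi

/-- If the Catalan constant equals `a / b` with `b` a positive integer, then `b > 10 ^ 1000`. -/
theorem catalan_den (a : ℤ) (b : ℕ) (hb : 0 < b)
    (h : ∑' j : ℕ, (-1 : ℝ) ^ j / (2 * (j : ℝ) + 1) ^ 2 = (a : ℝ) / (b : ℝ)) :
    10 ^ 1000 < b := by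
  have hlo := catalan_lo
  have hhi := catalan_hi
  rw [h] at hlo hhi
  have hbR : (0 : ℝ) < (b : ℝ) := by exact_mod_cast hb
  have hq : (0 : ℝ) < (cq : ℝ) := by exact_mod_cast num_cq_pos
  have hq' : (0 : ℝ) < (cq' : ℝ) := by exact_mod_cast num_cq'_pos
  rw [div_lt_div_iff₀ hq hbR] at hlo
  rw [div_lt_div_iff₀ hbR hq'] at hhi
  have h1 : (cp : ℤ) * (b : ℤ) < a * (cq : ℤ) := by exact_mod_cast hlo
  have h2 : a * (cq' : ℤ) < (cp' : ℤ) * (b : ℤ) := by exact_mod_cast hhi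
  have hdet : (cp' : ℤ) * (cq : ℤ) = (cp : ℤ) * (cq' : ℤ) + 1 := by exact_mod_cast num_det
  have hfin := farey_between (cp : ℤ) (cq : ℤ) (cp' : ℤ) (cq' : ℤ) a (b : ℤ)
    (by exact_mod_cast num_cq_pos) (by exact_mod_cast num_cq'_pos) hdet h1 h2
  have hfin' : cq + cq' ≤ b := by exact_mod_cast hfin
  exact lt_of_lt_of_le num_big hfin'

end Vale.Agent.Lib.P030
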