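import Mathlib
import Vale.Agent.Lib.P030.Euler

/-!
Integer recurrences computing the Euler partial sums of the Catalan series exactly.
-/

namespace Vale.Agent.Lib.P030

open Finset

/-- One step of the integer recurrences. The state is `(F, Q, H, P)`. -/
def step (n : ℕ) (s : ℕ × ℕ × ℕ × ℕ) : ℕ × ℕ × ℕ × ℕ :=
  (s.1 * (n + 1), s.2.1 * (2 * n + 3), s.2.2.1 * (2 * n + 3) + s.2.1,
    (s.2.2.2 + s.1 * s.2.2.1) * (2 * n + 3) ^ 2)

/-- The state after `n` steps: `F = n !`, `Q = 1 * 3 * ... * (2 n + 1)`,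
`H = Q * (1 + 1 / 3 + ... + 1 / (2 n + 1))`, `P = 2 * Q ^ 2 * (n-th Euler partial sum)`. -/
def st : ℕ → ℕ × ℕ × ℕ × ℕ
  | 0 => (1, 1, 1, 0)
  | n + 1 => step n (st n)

theorem st_succ (n : ℕ) : st (n + 1) = step n (st n) := rfl

theorem cc_zero_right (n : ℕ) : cc n 0 =
    ((n.factorial : ℝ) * 2 ^ n / ∏ j ∈ range (n + 1), (2 * (j : ℝ) + 1)) *
      ∑ j ∈ range (n + 1), 1 / (2 * (j : ℝ) + 1) := by
  simp [cc]

theorem st_F (n : ℕ) : ((st n).1 : ℝ) = (n.factorial : ℝ) := by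
  induction n with
  | zero => simp [st]
  | succ n ih =>
    rw [st_succ]
    simp only [step]
    push_cast
    rw [ih, Nat.factorial_succ]
    push_cast
    ring

theorem st_Q (n : ℕ) : ((st n).2.1 : ℝ) = ∏ j ∈ range (n + 1), (2 * (j : ℝ) + 1) := by
  induction n with
  | zero => simp [st]
  | succ n ih =>
    rw [st_succ, prod_range_succ _ (n + 1), ← ih]
    simp only [step]
    push_cast
    ring

theorem st_Q_pos (n : ℕ) : (0 : ℝ) < ((st n).2.1 : ℝ) := by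
  rw [st_Q]
  exact prod_pos fun j _ => by positivity

theorem st_H (n : ℕ) : ((st n).2.2.1 : ℝ) =
    ((st n).2.1 : ℝ) * ∑ j ∈ range (n + 1), 1 / (2 * (j : ℝ) + 1) := by
  induction n with
  | zero => simp [st]
  | succ n ih =>
    rw [sum_range_succ _ (n + 1)]
    rw [st_succ]
    simp only [step]
    push_cast
    rw [ih]
    have h : (0 : ℝ) < 2 * ((n : ℝ) + 1) + 1 := by positivity
    field_simp
    ring

theorem cc_st (n : ℕ) : cc n 0 =
    ((st n).1 : ℝ) * 2 ^ n * ((st n).2.2.1 : ℝ) / ((st n).2.1 : ℝ) ^ 2 := by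
  rw [cc_zero_right, st_H, st_F, ← st_Q]
  have h := st_Q_pos n
  field_simp

theorem st_P (n : ℕ) : ((st n).2.2.2 : ℝ) =
    2 * ((st n).2.1 : ℝ) ^ 2 * ∑ m ∈ range n, cc m 0 / 2 ^ (m + 1) := by
  induction n with
  | zero => simp [st]
  | succ n ih =>
    rw [sum_range_succ, cc_st n]
    have hQ := st_Q_pos n
    have e1 : ((st (n + 1)).2.2.2 : ℝ) =
        (((st n).2.2.2 : ℝ) + ((st n).1 : ℝ) * ((st n).2.2.1 : ℝ)) * (2 * (n : ℝ) + 3) ^ 2 := by
      rw [st_succ]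
      simp only [step]
      push_cast
      ring
    have e2 : ((st (n + 1)).2.1 : ℝ) = ((st n).2.1 : ℝ) * (2 * (n : ℝ) + 3) := by
      rw [st_succ]
      simp only [step]
      push_cast
      ring
    rw [e1, e2, ih]
    have h2 : (2 : ℝ) ^ (n + 1) = 2 * 2 ^ n := by ring
    rw [h2]
    have h3 : (0 : ℝ) < 2 ^ n := by positivity
    field_simp

/-- Exact rational enclosure of the Catalan constant from the state after `N` steps. -/
theorem catalan_enclosure (N : ℕ) :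
    ((st N).2.2.2 : ℝ) / (2 * ((st N).2.1 : ℝ) ^ 2) ≤
      ∑' j : ℕ, (-1 : ℝ) ^ j / (2 * (j : ℝ) + 1) ^ 2 ∧
    ∑' j : ℕ, (-1 : ℝ) ^ j / (2 * (j : ℝ) + 1) ^ 2 ≤
      (((st N).2.2.2 : ℝ) + 2 * ((st N).1 : ℝ) * ((st N).2.2.1 : ℝ)) /
        (2 * ((st N).2.1 : ℝ) ^ 2) := by
  have hb := catalan_bounds N
  have hQ := st_Q_pos N
  have h2 : (0 : ℝ) < 2 ^ N := by positivity
  have e1 : ((st N).2.2.2 : ℝ) / (2 * ((st N).2.1 : ℝ) ^ 2) =
      ∑ m ∈ range N, cc m 0 / 2 ^ (m + 1) := by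
    rw [st_P N]
    field_simp
  have e2 : (((st N).2.2.2 : ℝ) + 2 * ((st N).1 : ℝ) * ((st N).2.2.1 : ℝ)) /
        (2 * ((st N).2.1 : ℝ) ^ 2) =
      ∑ m ∈ range N, cc m 0 / 2 ^ (m + 1) + cc N 0 / 2 ^ N := by
    rw [add_div, e1, cc_st N]
    field_simp
  rw [e1, e2]
  exact hb

end Vale.Agent.Lib.P030
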